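import Vale.Agent.P329.R2.H874.Count
import Vale.Agent.P329.H259.Twist

/-! Clean subgroups of a finite group with a letter map -/

namespace Vale.Agent.P329.R2.H874

open Vale.Agent.P329 Vale.Agent.P329.H548

/-- `H` is clean for the letter map `f`: every word `v` fixes each coset `H * k` from which
reading `v, v, v, ...` never meets `H`. -/
def Clean {α G : Type} [Group G] (f : α → G) (H : Subgroup G) : Prop :=
  ∀ (v : List α) (k : G),
    (∃ (i : ℕ) (p q : List α), p ++ q = (List.replicate i v).flatten ∧
      k * (p.map f).prod ∈ H) ∨ k * (v.map f).prod * k⁻¹ ∈ H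

variable {α G : Type} [Group G]

/-- first direction: the first return language of a clean subgroup is star-free -/
theorem clean_star [Finite α] [Finite G] (f : α → G) (H : Subgroup G) (h : Clean f H) :
    ∃ e : GRE α, e.height = 0 ∧ H259.kst e.lang = {w | (w.map f).prod ∈ H} := by
  apply H259.offroot (H259.hom_prod f) H
  intro v k
  rcases h v k with ⟨i, p, q, hpq, hp⟩ | h
  · exact Or.inl ⟨i, p, q, by rw [hpq, H259.flatten_replicate], hp⟩
  · exact Or.inr h

/-- syntactically equivalent words have equal values modulo the core -/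
theorem syn_core (f : α → G) (hs : Function.Surjective fun w : List α => (w.map f).prod)
    (H : Subgroup G) {K : Set (List α)} (hK : K = {w | (w.map f).prod ∈ H}) {u v : List α}
    (huv : H259.Syn K u v) (k : G) : k * ((u.map f).prod * (v.map f).prod⁻¹) * k⁻¹ ∈ H := by
  obtain ⟨x, hx⟩ := hs k
  obtain ⟨y, hy⟩ := hs ((v.map f).prod⁻¹ * k⁻¹)
  change (x.map f).prod = k at hx
  change (y.map f).prod = (v.map f).prod⁻¹ * k⁻¹ at hy
  have h1 := huv x y
  rw [hK] at h1
  have h2 : ((x ++ v ++ y).map f).prod ∈ H := by
    rw [List.map_append, List.map_append, List.prod_append, List.prod_append, hx, hy]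
    have : k * (v.map f).prod * ((v.map f).prod⁻¹ * k⁻¹) = 1 := by group
    rw [this]; exact H.one_mem
  have h3 : ((x ++ u ++ y).map f).prod ∈ H := h1.2 h2
  rw [List.map_append, List.map_append, List.prod_append, List.prod_append, hx, hy] at h3
  have h4 : k * (u.map f).prod * ((v.map f).prod⁻¹ * k⁻¹) =
      k * ((u.map f).prod * (v.map f).prod⁻¹) * k⁻¹ := by group
  rwa [h4] at h3

/-- second direction -/
theorem clean_of_star [Finite α] [Finite G] (f : α → G)
    (hs : Function.Surjective fun w : List α => (w.map f).prod)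
    (H : Subgroup G) (e : GRE α) (he : e.height = 0)
    (hk : H259.kst e.lang = {w | (w.map f).prod ∈ H}) : Clean f H := by
  classical
  let N := H.normalCore
  let π : G →* G ⧸ N := QuotientGroup.mk' N
  have hN : N ≤ H := H.normalCore_le
  have hmap : ∀ w : List α, (w.map (fun a => π (f a))).prod = π (w.map f).prod := by
    intro w
    rw [map_list_prod, List.map_map]; rfl
  have hφ := H259.hom_prod (fun a => π (f a))
  have hs' : Function.Surjective (fun w : List α => (w.map (fun a => π (f a))).prod) := by
    intro g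
    obtain ⟨g, rfl⟩ := QuotientGroup.mk'_surjective N g
    obtain ⟨w, hw⟩ := hs g
    exact ⟨w, by change (w.map (fun a => π (f a))).prod = _; rw [hmap]; exact congrArg π hw⟩
  have hf : ∀ u v, H259.Syn (H259.kst e.lang) u v →
      (fun w : List α => (w.map (fun a => π (f a))).prod) u =
      (fun w : List α => (w.map (fun a => π (f a))).prod) v := by
    intro u v huv
    change (u.map (fun a => π (f a))).prod = (v.map (fun a => π (f a))).prod
    rw [hmap, hmap]
    have h1 : (u.map f).prod * (v.map f).prod⁻¹ ∈ N := by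
      intro k
      exact syn_core f hs H hk huv k
    have h2 : π ((u.map f).prod * (v.map f).prod⁻¹) = 1 := (QuotientGroup.eq_one_iff _).2 h1
    rw [map_mul, map_inv] at h2
    exact mul_inv_eq_one.1 h2
  have hmem : ∀ x : G, π x ∈ H259.valSub hφ e.lang → x ∈ H := by
    intro x hx
    obtain ⟨w, hw, hwx⟩ := hx
    change (w.map (fun a => π (f a))).prod = π x at hwx
    rw [hmap] at hwx
    rw [hk] at hw
    have h1 : (w.map f).prod⁻¹ * x ∈ N := QuotientGroup.eq.1 hwx
    have h2 := H.mul_mem hw (hN h1)
    rwa [mul_inv_cancel_left] at h2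
  intro v k
  rcases H259.twist hφ hs' (H259.FQ.lang e) (H259.PP.starfree e he) hf v (π k) with
    ⟨i, p, q, hpq, h⟩ | h
  · left
    refine ⟨i, p, q, by rw [hpq, H259.flatten_replicate], hmem _ ?_⟩
    rw [map_mul, ← hmap]; exact h
  · right
    apply hmem
    rw [map_mul, map_mul, map_inv, ← hmap]; exact h

/-- **If the clean subgroups have cores meeting trivially, all languages have height at most
one.** -/
theorem clean_cover [Finite α] [Finite G] (f : α → G)
    (hs : Function.Surjective fun w : List α => (w.map f).prod)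
    (hc : ∀ g : G, (∀ H : Subgroup G, Clean f H → ∀ k, k * g * k⁻¹ ∈ H) → g = 1)
    (S : Set G) : ∃ x : GRE α, x.height ≤ 1 ∧ x.lang = {w | (w.map f).prod ∈ S} := by
  classical
  have hfin : Finite (Subgroup G) :=
    Finite.of_injective (fun H : Subgroup G => (H : Set G)) SetLike.coe_injective
  have := Fintype.ofFinite {H : Subgroup G // Clean f H}
  choose E hE hE' using fun H : {H : Subgroup G // Clean f H} => clean_star f H.1 H.2
  refine H259.collapse_mpr 0 ((Finset.univ : Finset {H : Subgroup G // Clean f H}).toList.map E)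
    ?_ {w | (w.map f).prod ∈ S} ?_
  · intro e he
    obtain ⟨H, -, rfl⟩ := List.mem_map.1 he
    exact (hE H).le
  · intro u v huv
    have h1 : (u.map f).prod * (v.map f).prod⁻¹ = 1 := by
      apply hc
      intro H hH k
      exact syn_core f hs H (hE' ⟨H, hH⟩) (huv _ (List.mem_map.2 ⟨⟨H, hH⟩, by simp, rfl⟩)) k
    have h2 : (u.map f).prod = (v.map f).prod := mul_inv_eq_one.1 h1
    change (u.map f).prod ∈ S ↔ (v.map f).prod ∈ S
    rw [h2]

open Classical in
/-- number of proper prefixes `p` of the word with `k * f(p)` in `H` -/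
noncomputable def visits (f : α → G) (H : Subgroup G) : G → List α → ℕ
  | _, [] => 0
  | k, a :: w => (if k ∈ H then 1 else 0) + visits f H (k * f a) w

/-- the coset action -/
noncomputable def cact (f : α → G) (H : Subgroup G) (a : α) : Equiv.Perm (G ⧸ H) :=
  MulAction.toPerm ((f a)⁻¹)

theorem cact_apply (f : α → G) (H : Subgroup G) (a : α) (k : G) :
    cact f H a ((k⁻¹ : G) : G ⧸ H) = (((k * f a)⁻¹ : G) : G ⧸ H) := by
  rw [mul_inv_rev]; rfl

theorem go_cact (f : α → G) (H : Subgroup G) (w : List α) : ∀ k : G,
    go (cact f H) ((k⁻¹ : G) : G ⧸ H) w = (((k * (w.map f).prod)⁻¹ : G) : G ⧸ H) := by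
  induction w with
  | nil => intro k; simp [go]
  | cons a w ih =>
    intro k
    rw [go, cact_apply, ih]
    simp [mul_assoc]

theorem coset_base (H : Subgroup G) (g : G) :
    ((g⁻¹ : G) : G ⧸ H) = ((1 : G) : G ⧸ H) ↔ g ∈ H := by
  rw [QuotientGroup.eq, inv_inv, mul_one]

theorem clean_noCyc (f : α → G) (H : Subgroup G) (h : Clean f H) :
    NoCyc (dl (cact f H) ((1 : G) : G ⧸ H)) := by
  apply noCyc_gen
  intro v x n hn hoff hx
  by_cases hv : v = []
  · rw [hv]; rfl
  obtain ⟨g, rfl⟩ := QuotientGroup.mk_surjective x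
  obtain ⟨k, rfl⟩ : ∃ k : G, g = k⁻¹ := ⟨g⁻¹, (inv_inv g).symm⟩
  have hall : ∀ N p, p ≠ [] → p <+: pw (n * N) v →
      go (cact f H) ((k⁻¹ : G) : G ⧸ H) p ≠ ((1 : G) : G ⧸ H) := by
    intro N
    induction N with
    | zero =>
      intro p hp hpw
      rw [Nat.mul_zero] at hpw
      have : pw 0 v = [] := rfl
      rw [this, List.prefix_nil] at hpw
      exact absurd hpw hp
    | succ N ih =>
      intro p hp hpw
      rw [Nat.mul_succ, Nat.add_comm, pw_add'] at hpw
      obtain ⟨q, hq⟩ := hpw
      rcases List.append_eq_append_iff.1 hq with ⟨t, h1, -⟩ | ⟨t, rfl, h2⟩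
      · exact hoff p hp ⟨t, h1.symm⟩
      · have ht : t <+: pw (n * N) v := ⟨q, h2.symm⟩
        rw [go_append]
        change go (cact f H) (go (cact f H) _ (List.replicate n v).flatten) t ≠ _
        rw [hx]
        by_cases ht0 : t = []
        · subst ht0
          have h2 := hoff (List.replicate n v).flatten (by
            obtain ⟨m, rfl⟩ : ∃ m, n = m + 1 := ⟨n - 1, by omega⟩
            rw [List.replicate_succ, List.flatten_cons]
            intro h
            exact hv (List.append_eq_nil_iff.1 h).1) (List.prefix_refl _)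
          rw [hx] at h2
          exact h2
        · exact ih t ht0 ht
  have hk : k ∉ H := by
    intro hk
    have h2 := hoff (List.replicate n v).flatten (by
      obtain ⟨m, rfl⟩ : ∃ m, n = m + 1 := ⟨n - 1, by omega⟩
      rw [List.replicate_succ, List.flatten_cons]
      intro h
      exact hv (List.append_eq_nil_iff.1 h).1) (List.prefix_refl _)
    rw [hx] at h2
    exact h2 ((coset_base H k).2 hk)
  rcases h v k with ⟨i, p, q, hpq, hp⟩ | h
  · exfalso
    by_cases hp0 : p = []
    · rw [hp0] at hp
      simp at hp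
      exact hk hp
    · apply hall i p hp0 _ ((go_cact f H p k).trans ((coset_base H _).2 hp))
      have h1 : n * i = i + (n * i - i) := by
        have : i ≤ n * i := Nat.le_mul_of_pos_left i hn
        omega
      rw [h1, pw_add']
      refine List.IsPrefix.trans ⟨q, hpq⟩ (List.prefix_append _ _)
  · rw [go_cact, QuotientGroup.eq, inv_inv]
    exact h

theorem cnt_visits [DecidableEq α] (f : α → G) (H : Subgroup G) (S : Finset α)
    (w : List α) : (∀ a ∈ w, a ∈ S) → ∀ k : G,
    cnt (cact f H) ((1 : G) : G ⧸ H) S ((k⁻¹ : G) : G ⧸ H) w = visits f H k w := by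
  induction w with
  | nil => intro _ k; rfl
  | cons a w ih =>
    intro hw k
    rw [cnt, visits, cact_apply, ih (fun b hb => hw b (List.mem_cons_of_mem _ hb))]
    congr 1
    have ha : a ∈ S := hw a List.mem_cons_self
    by_cases hk : k ∈ H
    · rw [if_pos ⟨(coset_base H k).2 hk, ha⟩, if_pos hk]
    · rw [if_neg, if_neg hk]
      exact fun h => hk ((coset_base H k).1 h.1)

theorem disp_cnt [DecidableEq α] {X : Type} (act : α → Equiv.Perm X) (r : X) (m : ℕ)
    (S : Finset α) (w : List α) : ∀ x, disp act r m S x w = (cnt act r S x w : ZMod m) := by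
  induction w with
  | nil => intro x; simp [disp, cnt]
  | cons a w ih =>
    intro x
    rw [disp, cnt, ih]
    unfold H548.st
    split_ifs <;> push_cast <;> ring

/-- **Visits of cosets modulo `m`.** -/
theorem visits_height [Finite α] [Finite G] (f : α → G)
    (hs : Function.Surjective fun w : List α => (w.map f).prod)
    (H : Subgroup G) (hH : Clean f H) (m : ℕ) [NeZero m] (S : Set (G → ZMod m)) :
    ∃ x : GRE α, x.height ≤ 1 ∧ x.lang = {w | (fun k => (visits f H k w : ZMod m)) ∈ S} := by
  classical
  have := Fintype.ofFinite α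
  have hn := noCyc_count (cact f H) ((1 : G) : G ⧸ H) m Finset.univ (clean_noCyc f H hH)
    (fun a ha => absurd (Finset.mem_univ a) ha)
  obtain ⟨e, he, -, hg⟩ := good_gen (act' (cact f H) ((1 : G) : G ⧸ H) m Finset.univ)
    (((1 : G) : G ⧸ H), (0 : ZMod m)) hn
  apply height_one he
  intro u v huv
  have key : ∀ k, (visits f H k u : ZMod m) = visits f H k v := by
    intro k
    obtain ⟨p, hp⟩ := hs k
    change (p.map f).prod = k at hp
    have h1 := hg u v huv p
    rw [go'_eq, go'_eq, go'_eq] at h1
    have h2 := congrArg Prod.snd h1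
    have h3 : go (cact f H) ((1 : G) : G ⧸ H) p = ((k⁻¹ : G) : G ⧸ H) := by
      have h4 := go_cact f H p 1
      rw [one_mul, hp, inv_one] at h4
      exact h4
    simp only [h3, add_right_inj] at h2
    rw [disp_cnt, disp_cnt, cnt_visits f H _ u (fun a _ => Finset.mem_univ a),
      cnt_visits f H _ v (fun a _ => Finset.mem_univ a)] at h2
    exact h2
  change (fun k => (visits f H k u : ZMod m)) ∈ S ↔ (fun k => (visits f H k v : ZMod m)) ∈ S
  have : (fun k => (visits f H k u : ZMod m)) = fun k => (visits f H k v : ZMod m) :=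
    funext key
  rw [this]

end Vale.Agent.P329.R2.H874
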