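import Vale.Agent.P329.Defs
import Mathlib.Algebra.Group.End
import Mathlib.Data.Fin.VecNotation

/-! Names for the statement on first return codes -/

namespace Vale.Agent.P329.R2.H874

open Vale.Agent.P329

/-- every language recognised through `f` has generalized star height at most one -/
def Rec1 {α G : Type} [Monoid G] (f : α → G) : Prop :=
  ∀ S : Set G, ∃ x : GRE α, x.height ≤ 1 ∧ x.lang = {w | (w.map f).prod ∈ S}

/-- the letters act as the permutations listed in `p`, and every language recognised through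
them has generalized star height at most one -/
def GoodAl {n k : ℕ} (p : Fin k → Fin n → Fin n) : Prop :=
  ∃ f : Fin k → Equiv.Perm (Fin n), (∀ a, ⇑(f a) = p a) ∧ Rec1 f

/-- 4 letters, 7 points; the group is GL_3(2), of order 168 -/
def p7 : Fin 4 → Fin 7 → Fin 7 :=
  ![![1, 4, 6, 2, 3, 0, 5],
    ![3, 6, 5, 4, 1, 0, 2],
    ![4, 3, 0, 6, 1, 2, 5],
    ![4, 2, 5, 1, 3, 6, 0]]

/-- 6 letters, 8 points; the group is PGL_2(7), of order 336 -/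
def p8 : Fin 6 → Fin 8 → Fin 8 :=
  ![![4, 1, 2, 7, 3, 0, 5, 6],
    ![7, 1, 0, 6, 3, 5, 2, 4],
    ![4, 0, 1, 3, 6, 2, 5, 7],
    ![3, 2, 5, 4, 7, 0, 1, 6],
    ![3, 5, 0, 6, 4, 2, 1, 7],
    ![4, 2, 0, 6, 7, 1, 5, 3]]

/-- 4 letters, 9 points; the group is PSL_2(8), of order 504 -/
def p9 : Fin 4 → Fin 9 → Fin 9 :=
  ![![2, 4, 1, 3, 7, 8, 6, 5, 0],
    ![2, 7, 3, 1, 4, 5, 0, 8, 6],
    ![3, 1, 4, 2, 5, 6, 8, 7, 0],
    ![3, 5, 2, 4, 1, 7, 0, 6, 8]]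

/-- 2 letters, 9 points; the group is PGammaL_2(8), of order 1512 -/
def q9 : Fin 2 → Fin 9 → Fin 9 :=
  ![![2, 8, 3, 5, 1, 4, 7, 0, 6],
    ![1, 4, 2, 8, 5, 3, 0, 7, 6]]

/-- 4 letters, 10 points; the group is PGL_2(9), of order 720 -/
def p10 : Fin 4 → Fin 10 → Fin 10 :=
  ![![8, 1, 6, 3, 7, 9, 0, 5, 4, 2],
    ![8, 4, 0, 7, 3, 2, 6, 5, 1, 9],
    ![1, 8, 2, 4, 7, 5, 0, 9, 3, 6],
    ![1, 3, 0, 7, 4, 6, 2, 9, 8, 5]]

/-- 2 letters, 11 points; the group is M_11, of order 7920 -/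
def p11 : Fin 2 → Fin 11 → Fin 11 :=
  ![![2, 8, 4, 5, 1, 9, 0, 6, 3, 10, 7],
    ![1, 8, 4, 7, 9, 3, 0, 10, 2, 5, 6]]

/-- 2 letters, 12 points; the group is PGL_2(11), of order 1320 -/
def p12 : Fin 2 → Fin 12 → Fin 12 :=
  ![![3, 0, 2, 5, 4, 6, 10, 1, 11, 7, 8, 9],
    ![4, 1, 11, 10, 3, 8, 5, 0, 2, 9, 6, 7]]

/-- 4 letters, 12 points; the group is M_12, of order 95040 -/
def q12 : Fin 4 → Fin 12 → Fin 12 :=
  ![![5, 1, 7, 6, 11, 8, 10, 3, 2, 4, 9, 0],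
    ![5, 0, 10, 11, 9, 8, 3, 7, 2, 1, 6, 4],
    ![7, 9, 8, 1, 11, 5, 3, 2, 10, 4, 6, 0],
    ![7, 0, 8, 6, 9, 3, 10, 2, 5, 1, 4, 11]]

end Vale.Agent.P329.R2.H874
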