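import Vale.Agent.P329.R2.H874.Alph
import Mathlib.Algebra.Group.Subgroup.Lattice

/-! More names for the statement on first return codes -/

namespace Vale.Agent.P329.R2.H874

open Vale.Agent.P329

/-- the group generated by the letters acts sharply `k`-transitively -/
def SharpT {n : ℕ} (f : Bool → Equiv.Perm (Fin n)) (k : ℕ) : Prop :=
  ∀ s t : Fin k → Fin n, Function.Injective s → Function.Injective t →
    ∃! σ : Equiv.Perm (Fin n), σ ∈ Subgroup.closure (Set.range f) ∧ ∀ i, σ (s i) = t i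

/-- 8 letters, 8 points; the group is AGL_3(2), of order 1344 -/
def q8 : Fin 8 → Fin 8 → Fin 8 :=
  ![![1, 2, 5, 6, 0, 3, 4, 7],
    ![1, 2, 6, 5, 4, 7, 3, 0],
    ![2, 1, 6, 5, 7, 4, 3, 0],
    ![2, 6, 1, 5, 0, 4, 3, 7],
    ![2, 5, 1, 6, 4, 3, 7, 0],
    ![1, 6, 2, 5, 0, 7, 3, 4],
    ![1, 5, 2, 6, 7, 3, 4, 0],
    ![2, 1, 5, 6, 0, 3, 7, 4]]

/-- 3 letters, 9 points; the group is PGammaL_2(8), of order 1512 -/
def r9 : Fin 3 → Fin 9 → Fin 9 :=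
  ![![2, 8, 3, 5, 1, 4, 7, 0, 6],
    ![2, 0, 5, 3, 4, 7, 8, 6, 1],
    ![3, 1, 4, 2, 5, 6, 8, 7, 0]]

end Vale.Agent.P329.R2.H874
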