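import Vale.Agent.P329.H548.Mono
import Vale.Agent.P329.H259.Twist

/-! Clean systems: permutation systems without counters off the root -/

namespace Vale.Agent.P329.R2.H874

open Vale.Agent.P329 Vale.Agent.P329.H548

section basic

variable {α X : Type} (act : α → Equiv.Perm X) (r : X)

theorem run_ne {s t : X} {w : List α} (hw : w ≠ []) (h : run (dl act r) s w = some t) : t ≠ r := by
  have h1 := run_prefix act r h w hw (List.prefix_refl w)
  rwa [run_go act r h] at h1

theorem pw_add' (m n : ℕ) (z : List α) : pw (m + n) z = pw m z ++ pw n z := by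
  induction m with
  | zero => simp [pw]
  | succ m ih =>
    have : m + 1 + n = (m + n) + 1 := by omega
    rw [this, pw_succ, ih, pw_succ, List.append_assoc]

/-- the periodic run of an off-root cycle -/
theorem cyc_run {z : List α} {s : X} {n : ℕ} (hn : 0 < n)
    (hs : run (dl act r) s (pw n z) = some s) (i : ℕ) :
    run (dl act r) s (pw i z) = some (go act s (pw i z)) := by
  have hall : ∀ k, run (dl act r) s (pw (n * k) z) = some s := by
    intro k
    induction k with
    | zero => simp [pw, run]
    | succ k ih =>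
      rw [Nat.mul_succ, pw_add', run_append _ ih, hs]
  have h1 := hall i
  have h2 : n * i = i + (n * i - i) := by
    have : i ≤ n * i := Nat.le_mul_of_pos_left i hn
    omega
  rw [h2, pw_add'] at h1
  obtain ⟨t, h3, -⟩ := run_append_eq_some h1
  rw [h3, run_go act r h3]

/-- one more round -/
theorem cyc_step {z : List α} {s : X} {n : ℕ} (hn : 0 < n)
    (hs : run (dl act r) s (pw n z) = some s) (i : ℕ) :
    run (dl act r) (go act s (pw i z)) z = some (go act s (pw (i + 1) z)) := by
  have h1 := cyc_run act r hn hs (i + 1)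
  have h2 : pw (i + 1) z = pw i z ++ z := by
    rw [pw_add']
    congr 1
    simp [pw]
  rw [h2] at h1 ⊢
  rw [run_append _ (cyc_run act r hn hs i)] at h1
  exact h1

/-- two runs off the root keep the level of a pair from rising -/
theorem pair_walk (c : X → X → ℕ)
    (h1 : ∀ a x y, x ≠ y → x ≠ r → y ≠ r → act a x ≠ r → act a y ≠ r →
      c (act a x) (act a y) ≤ c x y)
    (w : List α) : ∀ x y x' y', x ≠ y → x ≠ r → y ≠ r →
    run (dl act r) x w = some x' → run (dl act r) y w = some y' → c x' y' ≤ c x y := by
  induction w with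
  | nil =>
    intro x y x' y' _ _ _ hx hy
    cases hx; cases hy; exact le_rfl
  | cons a w ih =>
    intro x y x' y' hxy hxr hyr hx hy
    obtain ⟨s, hs, hs'⟩ := run_cons_eq_some hx
    obtain ⟨t, ht, ht'⟩ := run_cons_eq_some hy
    rw [dl_some] at hs ht
    obtain ⟨rfl, hsr⟩ := hs
    obtain ⟨rfl, htr⟩ := ht
    have hne : act a x ≠ act a y := fun h => hxy ((act a).injective h)
    exact (ih _ _ _ _ hne hsr htr hs' ht').trans (h1 a x y hxy hxr hyr hsr htr)

/-- **The certificate on pairs of points.** -/
theorem noCyc_pairs (c : X → X → ℕ) (ρ : ℕ → X → ℕ)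
    (h1 : ∀ a x y, x ≠ y → x ≠ r → y ≠ r → act a x ≠ r → act a y ≠ r →
      c (act a x) (act a y) ≤ c x y)
    (h2 : ∀ x y, x ≠ y → x ≠ r → y ≠ r → ρ (c x y) x < ρ (c x y) y) : NoCyc (dl act r) := by
  intro z s n hn hs
  change run (dl act r) s (pw n z) = some s at hs
  by_cases hz : z = []
  · rw [hz]; rfl
  have hstep := cyc_step act r hn hs
  have hpn : pw n z ≠ [] := by
    obtain ⟨m, rfl⟩ : ∃ m, n = m + 1 := ⟨n - 1, by omega⟩
    rw [pw_succ]
    intro h
    exact hz (List.append_eq_nil_iff.1 h).1
  have hsr : s ≠ r := run_ne act r hpn hs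
  set f : ℕ → X := fun i => go act s (pw i z) with hf
  have f0 : f 0 = s := rfl
  have fr : ∀ i, f i ≠ r := by
    intro i
    cases i with
    | zero => exact hsr
    | succ i => exact run_ne act r hz (hstep i)
  have fn : f n = s := by
    change go act s (pw n z) = s
    exact run_go act r hs
  have fs : ∀ i, run (dl act r) (f i) z = some (f (i + 1)) := hstep
  have fg : ∀ i, f (i + 1) = go act (f i) z := fun i => (run_go act r (fs i)).symm
  by_cases h01 : f 1 = f 0
  · have := fs 0
    rw [zero_add, h01, f0] at this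
    exact this
  exfalso
  have hne : ∀ i, f i ≠ f (i + 1) := by
    intro i
    induction i with
    | zero => exact fun h => h01 h.symm
    | succ i ih =>
      intro h
      apply ih
      rw [fg i, fg (i + 1)] at h
      exact go_inj act z h
  have hanti : ∀ i, c (f (i + 1)) (f (i + 2)) ≤ c (f i) (f (i + 1)) := fun i =>
    pair_walk act r c h1 z _ _ _ _ (hne i) (fr i) (fr (i + 1)) (fs i) (fs (i + 1))
  have hle : ∀ i j, i ≤ j → c (f j) (f (j + 1)) ≤ c (f i) (f (i + 1)) := by
    intro i j hij
    induction j, hij using Nat.le_induction with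
    | base => exact le_rfl
    | succ j _ ih => exact (hanti j).trans ih
  have hper : c (f n) (f (n + 1)) = c (f 0) (f 1) := by
    rw [fg n, fn, ← f0, ← fg 0]
  have hconst : ∀ i, i ≤ n → c (f i) (f (i + 1)) = c (f 0) (f 1) := by
    intro i hi
    apply le_antisymm (hle 0 i (Nat.zero_le i))
    rw [← hper]
    exact hle i n hi
  have hlt : ∀ i, i ≤ n → 0 < i → ρ (c (f 0) (f 1)) (f 0) < ρ (c (f 0) (f 1)) (f i) := by
    intro i
    induction i with
    | zero => intro _ h; omega
    | succ i ih =>
      intro hi _
      have h3 := h2 (f i) (f (i + 1)) (hne i) (fr i) (fr (i + 1))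
      rw [hconst i (by omega)] at h3
      by_cases hi0 : i = 0
      · subst hi0; exact h3
      · exact (ih (by omega) (by omega)).trans h3
  have := hlt n le_rfl hn
  rw [fn, f0] at this
  exact lt_irrefl _ this

/-- the points outside the orbit of the root are fixed by all words -/
theorem fix_off (h : NoCyc (dl act r)) [Finite X] {x : X} (hx : ∀ p, go act r p ≠ x)
    (w : List α) : go act x w = x := by
  have hback : ∀ p, go act x p ≠ r := by
    intro p hp
    obtain ⟨q, hq⟩ := exists_back act x p
    rw [hp] at hq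
    exact hx q hq
  have hrun : ∀ (p : List α) (y : X), (∀ q, go act y q ≠ r) →
      run (dl act r) y p = some (go act y p) := by
    intro p
    induction p with
    | nil => intro y _; rfl
    | cons a p ih =>
      intro y hy
      have h1 : dl act r y a = some (act a y) := (dl_some act r).2 ⟨rfl, hy [a]⟩
      rw [run_cons_some p h1]
      exact ih _ fun q => hy (a :: q)
  have hn : 0 < orderOf (wp act w) := orderOf_pos _
  have h1 : go act x (pw (orderOf (wp act w)) w) = x := by
    rw [go_pw, pow_orderOf_eq_one]; rfl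
  have h2 := h w x _ hn (by
    have := hrun (pw (orderOf (wp act w)) w) x hback
    rw [h1] at this
    exact this)
  exact run_go act r h2

end basic

/-- **Good star-free language of a clean system of permutations.** -/
theorem perm_good {α X : Type} [Finite α] [Finite X] (σ : α → Equiv.Perm X) (r : X)
    (h : NoCyc (dl (fun a => (σ a)⁻¹) r)) :
    ∃ e : GRE α, e.height = 0 ∧ H259.kst e.lang = {w | (w.map σ).prod r = r} ∧
      ∀ u v, H259.Syn (H259.kst e.lang) u v → (u.map σ).prod = (v.map σ).prod := by
  classical
  have hwp : ∀ (w : List α) (x : X),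
      go (fun a => (σ a)⁻¹) x w = (w.map σ).prod⁻¹ x := by
    intro w x
    rw [← wp_apply]
    simp [wp]
  obtain ⟨e, he, hk, hg⟩ := good_gen (fun a => (σ a)⁻¹) r h
  refine ⟨e, he, ?_, ?_⟩
  · rw [hk]
    ext w
    change go (fun a => (σ a)⁻¹) r w = r ↔ (w.map σ).prod r = r
    rw [hwp]
    constructor
    · intro h
      rw [← h, perm_ai, h]
    · intro h
      rw [Equiv.Perm.inv_eq_iff_eq]; exact h.symm
  · intro u v huv
    have key : ∀ x, go (fun a => (σ a)⁻¹) x u = go (fun a => (σ a)⁻¹) x v := by
      intro x
      by_cases hx : ∃ p, go (fun a => (σ a)⁻¹) r p = x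
      · obtain ⟨p, rfl⟩ := hx
        exact hg u v huv p
      · have hx' : ∀ p, go (fun a => (σ a)⁻¹) r p ≠ x := fun p hp => hx ⟨p, hp⟩
        rw [fix_off _ r h hx' u, fix_off _ r h hx' v]
    have : (u.map σ).prod⁻¹ = (v.map σ).prod⁻¹ := by
      ext x : 1
      rw [← hwp, ← hwp]; exact key x
    exact inv_injective this

end Vale.Agent.P329.R2.H874
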