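import Vale.Agent.P329.R2.H874.Clean

/-! Counting the visits of the root keeps a system clean -/

namespace Vale.Agent.P329.R2.H874

open Vale.Agent.P329 Vale.Agent.P329.H548

section cnt

variable {α : Type} [DecidableEq α] {X : Type} (act : α → Equiv.Perm X) (r : X) (m : ℕ)
  (S : Finset α)

open Classical in
/-- number of letters of `S` read at the root -/
noncomputable def cnt : X → List α → ℕ
  | _, [] => 0
  | x, a :: w => (if x = r ∧ a ∈ S then 1 else 0) + cnt (act a x) w

theorem cnt_append (u v : List α) : ∀ x, cnt act r S x (u ++ v) =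
    cnt act r S x u + cnt act r S (go act x u) v := by
  induction u with
  | nil => intro x; simp [cnt, go]
  | cons a u ih =>
    intro x
    simp only [List.cons_append, cnt, go]
    rw [ih]; omega

theorem cnt_le [NeZero m] (w : List α) : ∀ (x : X) (y : ZMod m) (t : X × ZMod m),
    (x, y) ≠ (r, (0 : ZMod m)) →
    run (dl (act' act r m S) (r, (0 : ZMod m))) (x, y) w = some t →
    cnt act r S x w ≤ (-y).val := by
  induction w with
  | nil => intro x y t _ _; exact Nat.zero_le _
  | cons a w ih =>
    intro x y t hxy ht
    obtain ⟨s, hs, hs'⟩ := run_cons_eq_some ht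
    rw [dl_some, act'_apply] at hs
    obtain ⟨rfl, hsr⟩ := hs
    have h1 := ih _ _ t hsr hs'
    rw [cnt]
    by_cases h : x = r ∧ a ∈ S
    · rw [if_pos h]
      have h2 : H548.st r m S x a = 1 := by unfold H548.st; rw [if_pos h]
      rw [h2] at h1
      have hy : y ≠ 0 := by
        intro hy
        apply hxy
        rw [h.1, hy]
      have hy' : -y ≠ 0 := neg_ne_zero.2 hy
      have h3 := val_pred hy'
      have h4 : -(y + 1) = -y - 1 := by ring
      rw [h4] at h1
      omega
    · rw [if_neg h]
      have h2 : H548.st r m S x a = 0 := by unfold H548.st; rw [if_neg h]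
      rw [h2, add_zero] at h1
      omega

theorem go_zero (hS : ∀ a, a ∉ S → act a = 1) (w : List α) (hw : ∀ a ∈ w, a ∉ S) :
    ∀ x (y : ZMod m), go (act' act r m S) (x, y) w = (x, y) := by
  induction w with
  | nil => intro x y; rfl
  | cons a w ih =>
    intro x y
    have ha : a ∉ S := hw a List.mem_cons_self
    rw [go, act'_apply]
    have h2 : H548.st r m S x a = 0 := by
      unfold H548.st; rw [if_neg]; exact fun h => ha h.2
    rw [h2, add_zero, hS a ha]
    exact ih (fun b hb => hw b (List.mem_cons_of_mem _ hb)) x y

/-- without letters of `S` at the root: either the root is never met, or no letter of `S` occurs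
from the first visit on -/
theorem cnt_zero (hS : ∀ a, a ∉ S → act a = 1) (w : List α) : ∀ x,
    cnt act r S x w = 0 → x = r → (∀ a ∈ w, a ∉ S) := by
  induction w with
  | nil => intro x _ _ a ha; cases ha
  | cons b w ih =>
    intro x h hx
    rw [cnt] at h
    have hb : b ∉ S := by
      intro hb
      rw [if_pos ⟨hx, hb⟩] at h
      omega
    intro a ha
    rcases List.mem_cons.1 ha with rfl | ha
    · exact hb
    · refine ih (act b x) ?_ ?_ a ha
      · omega
      · rw [hS b hb]; exact hx

theorem run_off (w : List α) : ∀ x, cnt act r S x w = 0 →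
    (∀ u v, u ++ v = w → go act x u ≠ r) → run (dl act r) x w = some (go act x w) := by
  induction w with
  | nil => intro x _ _; rfl
  | cons b w ih =>
    intro x h hx
    have h1 : act b x ≠ r := hx [b] w rfl
    have h2 : dl act r x b = some (act b x) := (dl_some act r).2 ⟨rfl, h1⟩
    rw [run_cons_some w h2]
    rw [cnt] at h
    exact ih _ (by omega) fun u v huv => hx (b :: u) v (by rw [← huv]; rfl)

theorem cnt_pw (w : List α) (x : X) (hx : go act x w = x) (i : ℕ) :
    cnt act r S x (pw i w) = i * cnt act r S x w := by
  induction i with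
  | zero => simp [pw, cnt]
  | succ i ih =>
    rw [pw_succ, cnt_append, hx, ih]; ring

theorem disp_zero (w : List α) : ∀ x, cnt act r S x w = 0 → disp act r m S x w = 0 := by
  induction w with
  | nil => intro x _; rfl
  | cons a w ih =>
    intro x h
    rw [cnt] at h
    rw [disp, ih _ (by omega), add_zero]
    unfold H548.st
    rw [if_neg]
    intro h'
    rw [if_pos h'] at h
    omega

/-- **Counting the visits of the root.** -/
theorem noCyc_count [NeZero m] (h : NoCyc (dl act r)) (hS : ∀ a, a ∉ S → act a = 1) :
    NoCyc (dl (act' act r m S) (r, (0 : ZMod m))) := by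
  rintro z ⟨x, y⟩ n hn hs
  change run _ _ (pw n z) = _ at hs
  by_cases hz : z = []
  · rw [hz]; rfl
  have hpn : pw n z ≠ [] := by
    obtain ⟨k, rfl⟩ : ∃ k, n = k + 1 := ⟨n - 1, by omega⟩
    rw [pw_succ]
    intro h
    exact hz (List.append_eq_nil_iff.1 h).1
  have hxy : (x, y) ≠ (r, (0 : ZMod m)) := run_ne _ _ hpn hs
  have hrun := cyc_run _ _ hn hs
  have hx : go act x (pw n z) = x := by
    have h1 := run_go _ _ hs
    rw [go'_eq] at h1
    exact congrArg Prod.fst h1
  -- no letter of `S` is read at the root
  have hc : cnt act r S x (pw n z) = 0 := by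
    by_contra hc
    have h1 := hrun (n * ((-y).val + 1))
    have h2 := cnt_le act r m S _ x y _ hxy h1
    have h3 : pw (n * ((-y).val + 1)) z = pw ((-y).val + 1) (pw n z) := by
      have : ∀ k, pw (n * k) z = pw k (pw n z) := by
        intro k
        induction k with
        | zero => simp [pw]
        | succ k ih => rw [Nat.mul_succ, Nat.add_comm, pw_add', ih, pw_succ]
      exact this _
    rw [h3, cnt_pw act r S _ _ hx] at h2
    have h4 : 0 < cnt act r S x (pw n z) := Nat.pos_of_ne_zero hc
    nlinarith
  have hcz : cnt act r S x z = 0 := by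
    obtain ⟨k, rfl⟩ : ∃ k, n = k + 1 := ⟨n - 1, by omega⟩
    rw [pw_succ, cnt_append] at hc
    omega
  by_cases hoff : ∀ u v, u ++ v = pw n z → go act x u ≠ r
  · -- the root of the old system is never met
    have h1 := run_off act r S (pw n z) x hc hoff
    rw [hx] at h1
    have h2 := run_go act r (h z x n hn h1)
    have h3 := hrun 1
    have h4 : pw 1 z = z := by simp [pw]
    rw [h4, go'_eq, h2, disp_zero act r m S z x hcz, add_zero] at h3
    exact h3
  · -- only letters that act trivially
    push Not at hoff
    obtain ⟨u, v, huv, hu⟩ := hoff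
    have h1 : cnt act r S r (v ++ pw n z) = 0 := by
      have h2 : cnt act r S x (pw n z ++ pw n z) = 0 := by
        rw [cnt_append, hx, hc]
      rw [← huv, List.append_assoc, cnt_append, hu] at h2
      rw [huv] at h2
      omega
    have h2 := cnt_zero act r S hS _ r h1 rfl
    have h3 : ∀ a ∈ z, a ∉ S := by
      intro a ha
      apply h2
      apply List.mem_append_right
      obtain ⟨k, rfl⟩ : ∃ k, n = k + 1 := ⟨n - 1, by omega⟩
      rw [pw_succ]
      exact List.mem_append_left _ ha
    have h4 := hrun 1
    have h5 : pw 1 z = z := by simp [pw]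
    rw [h5, go_zero act r m S hS z h3] at h4
    exact h4

end cnt

end Vale.Agent.P329.R2.H874
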