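import Vale.Agent.P329.R2.H874.Fam
import Vale.Agent.P329.R2.H874.Alph2

/-! Two more clean alphabets -/

namespace Vale.Agent.P329.R2.H874

open Vale.Agent.P329 Vale.Agent.P329.H548

/-- AGL_3(2), order 1344, 8 points, 8 letters -/
theorem gAGL3_2 : Good q8 :=
  good _ ![![4, 0, 1, 5, 6, 2, 3, 7],
      ![7, 0, 1, 6, 4, 3, 2, 5],
      ![7, 1, 0, 6, 5, 3, 2, 4],
      ![4, 2, 0, 6, 5, 3, 1, 7],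
      ![7, 2, 0, 5, 4, 1, 3, 6],
      ![4, 0, 2, 6, 7, 3, 1, 5],
      ![7, 0, 2, 5, 6, 1, 3, 4],
      ![4, 1, 0, 5, 7, 2, 3, 6]]
    [[0, 0, 0, 0, 0, 0, 0, 0], [0, 0, 0, 1, 1, 1, 1, 1], [0, 1, 0, 1, 1, 1, 1, 1], [0, 2, 2, 0, 3, 3, 2, 3], [0, 2, 2, 4, 0, 4, 4, 4], [0, 2, 2, 2, 3, 0, 2, 3], [0, 2, 2, 3, 3, 3, 0, 3], [0, 2, 2, 4, 5, 4, 4, 0]]
    [[0, 0, 1, 0, 0, 0, 0, 0], [0, 1, 0, 2, 2, 2, 2, 2], [0, 3, 3, 1, 0, 0, 2, 0], [0, 0, 0, 1, 3, 2, 0, 3], [0, 0, 0, 2, 0, 2, 2, 1], [0, 0, 0, 0, 1, 0, 0, 0]]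
    (by decide +kernel) (by decide +kernel) (by decide +kernel) (by decide +kernel)

/-- PGammaL_2(8), order 1512, 9 points, 3 letters -/
theorem gPGaL2_8c : Good r9 :=
  good _ ![![7, 4, 0, 2, 5, 3, 8, 6, 1],
      ![1, 8, 0, 3, 4, 2, 7, 5, 6],
      ![8, 1, 3, 0, 2, 4, 5, 7, 6]]
    [[0, 0, 0, 0, 0, 0, 0, 0, 0], [0, 0, 2, 2, 2, 2, 3, 3, 3], [0, 1, 0, 0, 1, 1, 1, 1, 1], [0, 1, 1, 0, 1, 1, 1, 1, 1], [0, 3, 0, 0, 0, 2, 3, 3, 3], [0, 3, 0, 2, 1, 0, 3, 3, 3], [0, 4, 2, 2, 2, 2, 0, 3, 4], [0, 4, 2, 2, 2, 2, 4, 0, 4], [0, 4, 2, 2, 2, 2, 3, 3, 0]]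
    [[0, 0, 1, 2, 0, 0, 0, 0, 0], [0, 2, 1, 0, 3, 2, 2, 2, 2], [0, 0, 1, 3, 1, 2, 0, 0, 0], [0, 1, 0, 0, 0, 0, 3, 4, 2], [0, 3, 0, 0, 0, 0, 1, 0, 2]]
    (by decide +kernel) (by decide +kernel) (by decide +kernel) (by decide +kernel)

end Vale.Agent.P329.R2.H874
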