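import Vale.Agent.P329.R2.H874.Abs
import Vale.Agent.P329.R2.H874.Exam
import Vale.Agent.P329.R2.H989.Over

/-! First return codes: the general theorem -/

namespace Vale.Agent.P329.R2.H874

open Vale.Agent.P329

theorem closure_top {α G : Type} [Group G] (f : α → G)
    (hs : Function.Surjective fun w : List α => (w.map f).prod) :
    Subgroup.closure (Set.range f) = ⊤ := by
  rw [Subgroup.eq_top_iff']
  intro g
  obtain ⟨w, rfl⟩ := hs g
  change (w.map f).prod ∈ _
  apply Subgroup.list_prod_mem
  intro x hx
  obtain ⟨a, -, rfl⟩ := List.mem_map.1 hx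
  exact Subgroup.subset_closure ⟨a, rfl⟩

/-- The general theorem on clean subgroups. -/
theorem general (α G : Type) [Finite α] [Group G] [Finite G] (f : α → G)
    (hs : Function.Surjective fun w : List α => (w.map f).prod) :
    (∀ H : Subgroup G, (∃ e : GRE α, e.height = 0 ∧
      H259.kst e.lang = {w | (w.map f).prod ∈ H}) ↔ Clean f H) ∧
    ((∀ g : G, (∀ H : Subgroup G, Clean f H → ∀ k, k * g * k⁻¹ ∈ H) → g = 1) →
      ∀ S : Set G, ∃ x : GRE α, x.height ≤ 1 ∧ x.lang = {w | (w.map f).prod ∈ S}) ∧
    (∀ H : Subgroup G, Clean f H → ∀ m : ℕ, 0 < m → ∀ S : Set (G → ZMod m),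
      ∃ x : GRE α, x.height ≤ 1 ∧ x.lang = {w | (fun k => (visits f H k w : ZMod m)) ∈ S}) ∧
    (IsSimpleGroup G → ∀ H : Subgroup G, Clean f H → H ≠ ⊤ → IsCoatom H) := by
  refine ⟨fun H => ⟨?_, clean_star f H⟩, fun hc S => clean_cover f hs hc S, ?_, ?_⟩
  · rintro ⟨e, he, hk⟩
    exact clean_of_star f hs H e he hk
  · intro H hH m hm S
    have : NeZero m := ⟨by omega⟩
    exact visits_height f hs H hH m S
  · intro hG H hH hne
    refine H989.isCoatom (closure_top f hs) (fun a k => ?_) hne
    rcases hH [a] k with ⟨i, p, q, hpq, h⟩ | h
    · left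
      have hrep : (List.replicate i [a]).flatten = List.replicate i a := by
        induction i with
        | zero => rfl
        | succ i ih =>
          rw [List.replicate_succ, List.flatten_cons, List.replicate_succ]
          simp only [List.cons_append, List.nil_append, List.cons.injEq, true_and]
          clear ih hpq
          induction i with
          | zero => rfl
          | succ i ih =>
            rw [List.replicate_succ, List.flatten_cons, List.replicate_succ, ih]; rfl
      rw [hrep] at hpq
      refine ⟨p.length, ?_⟩
      have hp : p = List.replicate p.length a := by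
        apply List.eq_replicate_of_mem
        intro b hb
        have : b ∈ List.replicate i a := by rw [← hpq]; exact List.mem_append_left _ hb
        exact List.eq_of_mem_replicate this
      rw [hp, List.map_replicate, List.prod_replicate] at h
      exact h
    · right
      simpa using h

end Vale.Agent.P329.R2.H874
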