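import Vale.Agent.P329.R2.H874.Final
import Vale.Agent.P329.R2.H989.Exam2
import Vale.Agent.P329.R2.H734.GL3

/-! First return codes: all parts -/

namespace Vale.Agent.P329.R2.H874

open Vale.Agent.P329 Vale.Agent.P329.H548

theorem height_of_clean {α X : Type} [Finite α] [Finite X] (f : α → Equiv.Perm X) (r : X)
    (hn : NoCyc (dl (fun a => (f a)⁻¹) r)) (S : Set (Equiv.Perm X)) :
    ∃ x : GRE α, x.height ≤ 1 ∧ x.lang = {w | (w.map f).prod ∈ S} := by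
  obtain ⟨e, he, -, hg⟩ := perm_good f r hn
  apply height_one he
  intro u v huv
  change (u.map f).prod ∈ S ↔ (v.map f).prod ∈ S
  rw [hg u v huv]

/-- M_11, order 7920, 11 points -/
theorem m11 : Good2 (n := 11) ![2, 8, 4, 5, 1, 9, 0, 6, 3, 10, 7]
    ![1, 8, 4, 7, 9, 3, 0, 10, 2, 5, 6] := by
  obtain ⟨f, h1, h2, hn⟩ := H989.ex_M11
  exact ⟨f, funext h1, funext h2, fun S => height_of_clean f 0 hn S⟩

/-- all examples -/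
theorem examples :
    Good2 (n := 7) ![1, 4, 6, 2, 3, 0, 5] ![1, 2, 3, 4, 5, 6, 0] ∧
    Good2 (n := 8) ![3, 0, 7, 2, 4, 1, 5, 6] ![4, 1, 2, 7, 3, 0, 5, 6] ∧
    Good2 (n := 9) ![2, 4, 1, 3, 7, 8, 6, 5, 0] ![6, 1, 5, 2, 0, 7, 3, 4, 8] ∧
    Good2 (n := 9) ![2, 8, 3, 5, 1, 4, 7, 0, 6] ![1, 4, 2, 8, 5, 3, 0, 7, 6] ∧
    Good2 (n := 10) ![8, 1, 6, 3, 7, 9, 0, 5, 4, 2] ![3, 0, 6, 8, 5, 2, 1, 7, 4, 9] ∧
    Good2 (n := 11) ![2, 8, 4, 5, 1, 9, 0, 6, 3, 10, 7] ![1, 8, 4, 7, 9, 3, 0, 10, 2, 5, 6] ∧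
    Good2 (n := 12) ![3, 0, 2, 5, 4, 6, 10, 1, 11, 7, 8, 9] ![4, 1, 11, 10, 3, 8, 5, 0, 2, 9, 6, 7] ∧
    Good2 (n := 12) ![5, 1, 7, 6, 11, 8, 10, 3, 2, 4, 9, 0]
      ![5, 0, 10, 11, 9, 8, 3, 7, 2, 1, 6, 4] :=
  ⟨gl3_2, pgl2_7, psl2_8, pgaml2_8, pgl2_9, m11, pgl2_11, m12⟩

/-- **First return codes.** -/
theorem part :
    (∀ (α G : Type) [Finite α] [Group G] [Finite G] (f : α → G),
      Function.Surjective (fun w : List α => (w.map f).prod) →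
      (∀ H : Subgroup G, (∃ e : GRE α, e.height = 0 ∧
        H259.kst e.lang = {w | (w.map f).prod ∈ H}) ↔ Clean f H) ∧
      ((∀ g : G, (∀ H : Subgroup G, Clean f H → ∀ k, k * g * k⁻¹ ∈ H) → g = 1) →
        ∀ S : Set G, ∃ x : GRE α, x.height ≤ 1 ∧ x.lang = {w | (w.map f).prod ∈ S}) ∧
      (∀ H : Subgroup G, Clean f H → ∀ m : ℕ, 0 < m → ∀ S : Set (G → ZMod m),
        ∃ x : GRE α, x.height ≤ 1 ∧
          x.lang = {w | (fun k => (visits f H k w : ZMod m)) ∈ S}) ∧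
      (IsSimpleGroup G → ∀ H : Subgroup G, Clean f H → H ≠ ⊤ → IsCoatom H)) ∧
    (∃ f : Bool → Matrix.SpecialLinearGroup (Fin 3) (ZMod 2),
      Subgroup.closure (Set.range f) = ⊤ ∧
      ∀ S : Set (Matrix.SpecialLinearGroup (Fin 3) (ZMod 2)),
        ∃ x : GRE Bool, x.height ≤ 1 ∧ x.lang = {w | (w.map f).prod ∈ S}) ∧
    Good2 (n := 7) ![1, 4, 6, 2, 3, 0, 5] ![1, 2, 3, 4, 5, 6, 0] ∧
    Good2 (n := 8) ![3, 0, 7, 2, 4, 1, 5, 6] ![4, 1, 2, 7, 3, 0, 5, 6] ∧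
    Good2 (n := 9) ![2, 4, 1, 3, 7, 8, 6, 5, 0] ![6, 1, 5, 2, 0, 7, 3, 4, 8] ∧
    Good2 (n := 9) ![2, 8, 3, 5, 1, 4, 7, 0, 6] ![1, 4, 2, 8, 5, 3, 0, 7, 6] ∧
    Good2 (n := 10) ![8, 1, 6, 3, 7, 9, 0, 5, 4, 2] ![3, 0, 6, 8, 5, 2, 1, 7, 4, 9] ∧
    Good2 (n := 11) ![2, 8, 4, 5, 1, 9, 0, 6, 3, 10, 7] ![1, 8, 4, 7, 9, 3, 0, 10, 2, 5, 6] ∧
    Good2 (n := 12) ![3, 0, 2, 5, 4, 6, 10, 1, 11, 7, 8, 9] ![4, 1, 11, 10, 3, 8, 5, 0, 2, 9, 6, 7] ∧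
    Good2 (n := 12) ![5, 1, 7, 6, 11, 8, 10, 3, 2, 4, 9, 0]
      ![5, 0, 10, 11, 9, 8, 3, 7, 2, 1, 6, 4] :=
  ⟨fun α G _ _ _ f hs => general α G f hs, H734.gl3, examples⟩

end Vale.Agent.P329.R2.H874
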