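import Vale.Agent.P329.R2.H874.Final
import Vale.Agent.P329.R2.H874.Fam
import Vale.Agent.P329.R2.H734.GL3

/-! First return codes: all parts, examples with the largest alphabets -/

namespace Vale.Agent.P329.R2.H874

open Vale.Agent.P329 Vale.Agent.P329.H548

/-- **First return codes.** -/
theorem part2 :
    (∀ (α G : Type) [Finite α] [Group G] [Finite G] (f : α → G),
      Function.Surjective (fun w : List α => (w.map f).prod) →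
      (∀ H : Subgroup G, (∃ e : GRE α, e.height = 0 ∧
        H259.kst e.lang = {w | (w.map f).prod ∈ H}) ↔ Clean f H) ∧
      ((∀ g : G, (∀ H : Subgroup G, Clean f H → ∀ k, k * g * k⁻¹ ∈ H) → g = 1) →
        ∀ S : Set G, ∃ x : GRE α, x.height ≤ 1 ∧ x.lang = {w | (w.map f).prod ∈ S}) ∧
      (∀ H : Subgroup G, Clean f H → ∀ m : ℕ, 0 < m → ∀ S : Set (G → ZMod m),
        ∃ x : GRE α, x.height ≤ 1 ∧
          x.lang = {w | (fun k => (visits f H k w : ZMod m)) ∈ S}) ∧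
      (IsSimpleGroup G → ∀ H : Subgroup G, Clean f H → H ≠ ⊤ → IsCoatom H)) ∧
    (∃ f : Bool → Matrix.SpecialLinearGroup (Fin 3) (ZMod 2),
      Subgroup.closure (Set.range f) = ⊤ ∧
      ∀ S : Set (Matrix.SpecialLinearGroup (Fin 3) (ZMod 2)),
        ∃ x : GRE Bool, x.height ≤ 1 ∧ x.lang = {w | (w.map f).prod ∈ S}) ∧
    Good (n := 7) (k := 4) ![![1, 4, 6, 2, 3, 0, 5],
      ![3, 6, 5, 4, 1, 0, 2],
      ![4, 3, 0, 6, 1, 2, 5],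
      ![4, 2, 5, 1, 3, 6, 0]] ∧
    Good (n := 8) (k := 6) ![![4, 1, 2, 7, 3, 0, 5, 6],
      ![7, 1, 0, 6, 3, 5, 2, 4],
      ![4, 0, 1, 3, 6, 2, 5, 7],
      ![3, 2, 5, 4, 7, 0, 1, 6],
      ![3, 5, 0, 6, 4, 2, 1, 7],
      ![4, 2, 0, 6, 7, 1, 5, 3]] ∧
    Good (n := 9) (k := 4) ![![2, 4, 1, 3, 7, 8, 6, 5, 0],
      ![2, 7, 3, 1, 4, 5, 0, 8, 6],
      ![3, 1, 4, 2, 5, 6, 8, 7, 0],
      ![3, 5, 2, 4, 1, 7, 0, 6, 8]] ∧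
    Good (n := 9) (k := 2) ![![2, 8, 3, 5, 1, 4, 7, 0, 6],
      ![1, 4, 2, 8, 5, 3, 0, 7, 6]] ∧
    Good (n := 10) (k := 4) ![![8, 1, 6, 3, 7, 9, 0, 5, 4, 2],
      ![8, 4, 0, 7, 3, 2, 6, 5, 1, 9],
      ![1, 8, 2, 4, 7, 5, 0, 9, 3, 6],
      ![1, 3, 0, 7, 4, 6, 2, 9, 8, 5]] ∧
    Good (n := 11) (k := 2) ![![2, 8, 4, 5, 1, 9, 0, 6, 3, 10, 7],
      ![1, 8, 4, 7, 9, 3, 0, 10, 2, 5, 6]] ∧
    Good (n := 12) (k := 2) ![![3, 0, 2, 5, 4, 6, 10, 1, 11, 7, 8, 9],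
      ![4, 1, 11, 10, 3, 8, 5, 0, 2, 9, 6, 7]] ∧
    Good (n := 12) (k := 4) ![![5, 1, 7, 6, 11, 8, 10, 3, 2, 4, 9, 0],
      ![5, 0, 10, 11, 9, 8, 3, 7, 2, 1, 6, 4],
      ![7, 9, 8, 1, 11, 5, 3, 2, 10, 4, 6, 0],
      ![7, 0, 8, 6, 9, 3, 10, 2, 5, 1, 4, 11]] :=
  ⟨fun α G _ _ _ f hs => general α G f hs, H734.gl3, gGL3_2, gPGL2_7, gPSL2_8, gPGaL2_8, gPGL2_9, gM11, gPGL2_11, gM12⟩

end Vale.Agent.P329.R2.H874
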