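import Vale.Agent.P329.R2.H874.Final
import Vale.Agent.P329.R2.H874.Fam
import Vale.Agent.P329.R2.H874.Alph
import Vale.Agent.P329.R2.H734.GL3

/-! First return codes: all parts, short form -/

namespace Vale.Agent.P329.R2.H874

open Vale.Agent.P329 Vale.Agent.P329.H548

/-- **First return codes.** -/
theorem part3 :
    (∀ (α G : Type) [Finite α] [Group G] [Finite G] (f : α → G),
      Function.Surjective (fun w : List α => (w.map f).prod) →
      (∀ H : Subgroup G, (∃ e : GRE α, e.height = 0 ∧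
        H259.kst e.lang = {w | (w.map f).prod ∈ H}) ↔ Clean f H) ∧
      ((∀ g : G, (∀ H : Subgroup G, Clean f H → ∀ k, k * g * k⁻¹ ∈ H) → g = 1) → Rec1 f) ∧
      (∀ H : Subgroup G, Clean f H → ∀ m : ℕ, 0 < m → ∀ S : Set (G → ZMod m),
        ∃ x : GRE α, x.height ≤ 1 ∧
          x.lang = {w | (fun k => (visits f H k w : ZMod m)) ∈ S}) ∧
      (IsSimpleGroup G → ∀ H : Subgroup G, Clean f H → H ≠ ⊤ → IsCoatom H)) ∧
    (∃ f : Bool → Matrix.SpecialLinearGroup (Fin 3) (ZMod 2),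
      Subgroup.closure (Set.range f) = ⊤ ∧ Rec1 f) ∧
    GoodAl p7 ∧ GoodAl p8 ∧ GoodAl p9 ∧ GoodAl q9 ∧ GoodAl p10 ∧ GoodAl p11 ∧ GoodAl p12 ∧
    GoodAl q12 :=
  ⟨fun α G _ _ _ f hs => general α G f hs, H734.gl3, gGL3_2, gPGL2_7, gPSL2_8, gPGaL2_8,
    gPGL2_9, gM11, gPGL2_11, gM12⟩

end Vale.Agent.P329.R2.H874
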